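import Mathlib
import Crest.Prelude.Def_TreeProducts
import Crest.Agent.Lib.S0166.Helper32Core

/-!
Tree products (S0169): the path products of an independent family with law `ν` form a bounded
tree in `L¹` whose increments have constant norm and `√card`-bounded partial sums; hence the
product span is infinite-dimensional and has no equivalent asymptotically uniformly convex norm.
-/

set_option autoImplicit false
set_option linter.unusedSectionVars false

namespace Crest.Agent.S0169.Helper36

open MeasureTheory ProbabilityTheory Filter Topology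
open Crest.AnalysisR Crest.AnalysisR.TreeProduct

/-! ### Facts about the law -/

section Law

variable {ν : Measure ℝ} [IsProbabilityMeasure ν]

theorem integrable_id_of_sq (hm2 : Integrable (fun x : ℝ => x ^ 2) ν) :
    Integrable (fun x : ℝ => x) ν := by
  refine Integrable.mono' (g := fun x : ℝ => 1 + x ^ 2) ((integrable_const 1).add hm2)
    measurable_id.aestronglyMeasurable (ae_of_all _ fun x => ?_)
  rw [Real.norm_eq_abs]
  nlinarith [abs_nonneg x, sq_abs x, sq_nonneg (|x| - 1)]

theorem ae_pos (hpos : ν (Set.Ioi 0) = 1) : ∀ᵐ x ∂ν, 0 < x :=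
  (mem_ae_iff_prob_eq_one measurableSet_Ioi).mpr hpos

theorem integral_abs_eq_one (hpos : ν (Set.Ioi 0) = 1) (hmean : ∫ x, x ∂ν = 1) :
    ∫ x, |x| ∂ν = 1 := by
  rw [← hmean]
  refine integral_congr_ae ?_
  filter_upwards [ae_pos hpos] with x hx
  exact abs_of_pos hx

theorem integrable_abs_sub_one (hm2 : Integrable (fun x : ℝ => x ^ 2) ν) :
    Integrable (fun x : ℝ => |x - 1|) ν :=
  ((integrable_id_of_sq hm2).sub (integrable_const 1)).abs

theorem integral_abs_sub_one_pos (hnc : ∀ c : ℝ, ν ≠ Measure.dirac c)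
    (hm2 : Integrable (fun x : ℝ => x ^ 2) ν) : 0 < ∫ x, |x - 1| ∂ν := by
  have hint := integrable_abs_sub_one hm2
  have hnn : 0 ≤ ∫ x, |x - 1| ∂ν := integral_nonneg fun x => abs_nonneg _
  rcases hnn.lt_or_eq with h | h
  · exact h
  · exfalso
    have h0 : (fun x : ℝ => |x - 1|) =ᵐ[ν] 0 :=
      (integral_eq_zero_iff_of_nonneg (fun x => abs_nonneg _) hint).mp h.symm
    have h1 : ∀ᵐ x ∂ν, x = 1 := by
      filter_upwards [h0] with x hx
      have : |x - 1| = 0 := hx
      rw [abs_eq_zero] at this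
      linarith
    apply hnc 1
    ext s hs
    by_cases h1s : (1 : ℝ) ∈ s
    · rw [Measure.dirac_apply_of_mem h1s]
      refine (mem_ae_iff_prob_eq_one hs).mp ?_
      filter_upwards [h1] with x hx
      rw [hx]
      exact h1s
    · rw [Measure.dirac_apply' _ hs, Set.indicator_of_notMem h1s]
      rw [measure_eq_zero_iff_ae_notMem]
      filter_upwards [h1] with x hx
      rw [hx]
      exact h1s

theorem integrable_sub_one_sq (hm2 : Integrable (fun x : ℝ => x ^ 2) ν) :
    Integrable (fun x : ℝ => (x - 1) ^ 2) ν := by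
  have : (fun x : ℝ => (x - 1) ^ 2) = fun x => x ^ 2 - 2 * x + 1 := by
    ext x
    ring
  rw [this]
  exact (hm2.sub ((integrable_id_of_sq hm2).const_mul 2)).add (integrable_const 1)

theorem integral_sub_one (hmean : ∫ x, x ∂ν = 1) (hm2 : Integrable (fun x : ℝ => x ^ 2) ν) :
    ∫ x, (x - 1) ∂ν = 0 := by
  rw [integral_sub (integrable_id_of_sq hm2) (integrable_const 1), hmean]
  simp

end Law

/-! ### The tree -/

section Tree

variable {Ω : Type} [MeasurableSpace Ω] {μ : Measure Ω} [IsProbabilityMeasure μ]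
  {ν : Measure ℝ} [IsProbabilityMeasure ν] {W : List ℕ → Ω → ℝ}

/-- The non-root vertices on the root path of `v`. -/
def tailSet : List ℕ → Finset (List ℕ)
  | [] => ∅
  | a :: v => insert (a :: v) (tailSet v)

theorem length_le_of_mem_tailSet : ∀ {v u : List ℕ}, u ∈ tailSet v → u.length ≤ v.length
  | [], u, h => by simp [tailSet] at h
  | a :: v, u, h => by
    simp only [tailSet, Finset.mem_insert] at h
    rcases h with rfl | h
    · exact le_rfl
    · exact (length_le_of_mem_tailSet h).trans (by simp)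

theorem cons_notMem_tailSet (a : ℕ) (v : List ℕ) : a :: v ∉ tailSet v := fun h => by
  have := length_le_of_mem_tailSet h
  simp at this

theorem pathProduct_eq_prod (W : List ℕ → Ω → ℝ) :
    ∀ v : List ℕ, pathProduct W v = ∏ u ∈ tailSet v, W u
  | [] => by
    ext z
    simp [pathProduct, tailSet]
  | a :: v => by
    rw [tailSet, Finset.prod_insert (cons_notMem_tailSet a v), ← pathProduct_eq_prod W v]
    ext z
    simp [pathProduct, mul_comm]

theorem measurable_pathProduct (hWm : ∀ v, Measurable (W v)) :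
    ∀ v : List ℕ, Measurable (pathProduct W v)
  | [] => measurable_const
  | a :: v => (measurable_pathProduct hWm v).mul (hWm (a :: v))

theorem indepFun_pathProduct_cons (hW : IsRealization ν μ W) (a : ℕ) (v : List ℕ) :
    IndepFun (pathProduct W v) (W (a :: v)) μ := by
  rw [pathProduct_eq_prod]
  exact hW.2.1.indepFun_finsetProd_of_notMem hW.1 (cons_notMem_tailSet a v)

theorem indepFun_pathProduct_sum (hW : IsRealization ν μ W) (v : List ℕ) (T : Finset ℕ) :
    IndepFun (pathProduct W v) (fun ω => ∑ a ∈ T, (W (a :: v) ω - 1)) μ := by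
  classical
  set S := tailSet v with hS
  set T' : Finset (List ℕ) := T.image (fun a => a :: v) with hT'
  have hdisj : Disjoint S T' := by
    rw [Finset.disjoint_left]
    intro u hu hu'
    obtain ⟨a, -, rfl⟩ := Finset.mem_image.mp hu'
    exact cons_notMem_tailSet a v hu
  have h := hW.2.1.indepFun_finset S T' hdisj hW.1
  have hφ : Measurable (fun g : S → ℝ => ∏ i, g i) := by fun_prop
  have hψ : Measurable (fun g : T' → ℝ => ∑ i, (g i - 1)) := by fun_prop
  have h2 := h.comp hφ hψ
  have e1 : ((fun g : S → ℝ => ∏ i, g i) ∘ fun ω (i : S) => W i ω) = pathProduct W v := by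
    rw [pathProduct_eq_prod]
    ext ω
    simp only [Function.comp, Finset.prod_apply]
    exact Finset.prod_coe_sort S (fun u => W u ω)
  have e2 : ((fun g : T' → ℝ => ∑ i, (g i - 1)) ∘ fun ω (i : T') => W i ω)
      = fun ω => ∑ a ∈ T, (W (a :: v) ω - 1) := by
    ext ω
    simp only [Function.comp]
    rw [Finset.sum_coe_sort T' (fun u => W u ω - 1), hT', Finset.sum_image]
    intro x _ y _ hxy
    exact (List.cons.inj hxy).1
  rw [e1, e2] at h2
  exact h2

theorem integral_comp_W (hW : IsRealization ν μ W) {u : List ℕ} (hu : u ≠ []) (g : ℝ → ℝ)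
    (hg : Measurable g) : ∫ ω, g (W u ω) ∂μ = ∫ x, g x ∂ν := by
  rw [← hW.2.2 u hu, integral_map (hW.1 u).aemeasurable hg.aestronglyMeasurable]

theorem integrable_comp_W (hW : IsRealization ν μ W) {u : List ℕ} (hu : u ≠ []) (g : ℝ → ℝ)
    (hg : Measurable g) (hgi : Integrable g ν) : Integrable (fun ω => g (W u ω)) μ := by
  rw [← hW.2.2 u hu] at hgi
  exact (integrable_map_measure hg.aestronglyMeasurable (hW.1 u).aemeasurable).mp hgi

theorem pathProduct_props (hW : IsRealization ν μ W) (hpos : ν (Set.Ioi 0) = 1)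
    (hmean : ∫ x, x ∂ν = 1) (hm2 : Integrable (fun x : ℝ => x ^ 2) ν) :
    ∀ v : List ℕ, Integrable (pathProduct W v) μ ∧ ∫ ω, |pathProduct W v ω| ∂μ = 1
  | [] => ⟨integrable_const 1, by simp [pathProduct]⟩
  | a :: v => by
    obtain ⟨ih1, ih2⟩ := pathProduct_props hW hpos hmean hm2 v
    have hind := indepFun_pathProduct_cons hW a v
    have hne : a :: v ≠ [] := List.cons_ne_nil a v
    have hWi : Integrable (W (a :: v)) μ :=
      integrable_comp_W hW hne (fun x => x) measurable_id (integrable_id_of_sq hm2)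
    refine ⟨hind.integrable_mul ih1 hWi, ?_⟩
    have habs : IndepFun (fun ω => |pathProduct W v ω|) (fun ω => |W (a :: v) ω|) μ :=
      hind.comp continuous_abs.measurable continuous_abs.measurable
    calc ∫ ω, |pathProduct W (a :: v) ω| ∂μ
        = ∫ ω, |pathProduct W v ω| * |W (a :: v) ω| ∂μ :=
          integral_congr_ae (ae_of_all _ fun ω => abs_mul _ _)
      _ = (∫ ω, |pathProduct W v ω| ∂μ) * ∫ ω, |W (a :: v) ω| ∂μ :=
          habs.integral_fun_mul_eq_mul_integral
            (continuous_abs.measurable.comp (measurable_pathProduct hW.1 v)).aestronglyMeasurable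
            (continuous_abs.measurable.comp (hW.1 (a :: v))).aestronglyMeasurable
      _ = 1 := by
          rw [ih2, integral_comp_W hW hne (fun x => |x|) continuous_abs.measurable,
            integral_abs_eq_one hpos hmean, one_mul]

/-- The `L¹` class of a path product. -/
noncomputable def ppL (hint : ∀ v, Integrable (pathProduct W v) μ) (v : List ℕ) : Lp ℝ 1 μ :=
  (hint v).toL1 (pathProduct W v)

theorem ppL_mem (hint : ∀ v, Integrable (pathProduct W v) μ) (v : List ℕ) :
    ppL hint v ∈ productSpan μ W :=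
  (Submodule.le_topologicalClosure _) (Submodule.subset_span ⟨v, (hint v).coeFn_toL1⟩)

/-- The path product as an element of the product span. -/
noncomputable def ppX (hint : ∀ v, Integrable (pathProduct W v) μ) (v : List ℕ) :
    ↥(productSpan μ W) :=
  ⟨ppL hint v, ppL_mem hint v⟩

theorem norm_ppL (hint : ∀ v, Integrable (pathProduct W v) μ)
    (h1 : ∀ v, ∫ ω, |pathProduct W v ω| ∂μ = 1) (v : List ℕ) : ‖ppL hint v‖ = 1 := by
  rw [L1.norm_eq_integral_norm, ← h1 v]
  refine integral_congr_ae ?_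
  filter_upwards [(hint v).coeFn_toL1] with ω hω
  rw [ppL, hω, Real.norm_eq_abs]

theorem coeFn_sum_increments (hint : ∀ v, Integrable (pathProduct W v) μ) (v : List ℕ)
    (T : Finset ℕ) :
    ((∑ a ∈ T, (ppL hint (a :: v) - ppL hint v) : Lp ℝ 1 μ) : Ω → ℝ) =ᵐ[μ]
      fun ω => pathProduct W v ω * ∑ a ∈ T, (W (a :: v) ω - 1) := by
  have h1 := Lp.coeFn_fun_finsetSum T (fun a => ppL hint (a :: v) - ppL hint v)
  have h2 : ∀ a : ℕ, ((ppL hint (a :: v) - ppL hint v : Lp ℝ 1 μ) : Ω → ℝ) =ᵐ[μ]
      fun ω => pathProduct W v ω * (W (a :: v) ω - 1) := by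
    intro a
    filter_upwards [Lp.coeFn_sub (ppL hint (a :: v)) (ppL hint v), (hint (a :: v)).coeFn_toL1,
      (hint v).coeFn_toL1] with ω h3 h4 h5
    rw [h3, Pi.sub_apply, ppL, ppL, h4, h5]
    simp only [pathProduct]
    ring
  filter_upwards [h1, ae_all_iff.mpr h2] with ω h3 h4
  rw [h3, Finset.mul_sum]
  exact Finset.sum_congr rfl fun a _ => h4 a

theorem norm_sum_increments (hW : IsRealization ν μ W)
    (hint : ∀ v, Integrable (pathProduct W v) μ)
    (h1 : ∀ v, ∫ ω, |pathProduct W v ω| ∂μ = 1) (v : List ℕ) (T : Finset ℕ) :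
    ‖∑ a ∈ T, (ppL hint (a :: v) - ppL hint v)‖ = ∫ ω, |∑ a ∈ T, (W (a :: v) ω - 1)| ∂μ := by
  rw [L1.norm_eq_integral_norm]
  have hae := coeFn_sum_increments hint v T
  have hind : IndepFun (fun ω => |pathProduct W v ω|)
      (fun ω => |∑ a ∈ T, (W (a :: v) ω - 1)|) μ :=
    (indepFun_pathProduct_sum hW v T).comp continuous_abs.measurable continuous_abs.measurable
  have hm : Measurable (fun ω => ∑ a ∈ T, (W (a :: v) ω - 1)) :=
    Finset.measurable_sum T fun a _ => (hW.1 (a :: v)).sub_const 1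
  calc ∫ ω, ‖((∑ a ∈ T, (ppL hint (a :: v) - ppL hint v) : Lp ℝ 1 μ) : Ω → ℝ) ω‖ ∂μ
      = ∫ ω, |pathProduct W v ω| * |∑ a ∈ T, (W (a :: v) ω - 1)| ∂μ := by
        refine integral_congr_ae ?_
        filter_upwards [hae] with ω hω
        rw [hω, Real.norm_eq_abs, abs_mul]
    _ = (∫ ω, |pathProduct W v ω| ∂μ) * ∫ ω, |∑ a ∈ T, (W (a :: v) ω - 1)| ∂μ :=
        hind.integral_fun_mul_eq_mul_integral
          (continuous_abs.measurable.comp (measurable_pathProduct hW.1 v)).aestronglyMeasurable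
          (continuous_abs.measurable.comp hm).aestronglyMeasurable
    _ = _ := by rw [h1 v, one_mul]

theorem norm_increment (hW : IsRealization ν μ W)
    (hint : ∀ v, Integrable (pathProduct W v) μ)
    (h1 : ∀ v, ∫ ω, |pathProduct W v ω| ∂μ = 1) (v : List ℕ) (a : ℕ) :
    ‖ppL hint (a :: v) - ppL hint v‖ = ∫ x, |x - 1| ∂ν := by
  have h := norm_sum_increments hW hint h1 v {a}
  simp only [Finset.sum_singleton] at h
  rw [h]
  exact integral_comp_W hW (List.cons_ne_nil a v) (fun x => |x - 1|)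
    (continuous_abs.measurable.comp (measurable_id.sub_const 1))

theorem integral_abs_sum_le (hW : IsRealization ν μ W) (hmean : ∫ x, x ∂ν = 1)
    (hm2 : Integrable (fun x : ℝ => x ^ 2) ν) (v : List ℕ) (T : Finset ℕ) :
    ∫ ω, |∑ a ∈ T, (W (a :: v) ω - 1)| ∂μ
      ≤ Real.sqrt (∫ x, (x - 1) ^ 2 ∂ν) * Real.sqrt T.card := by
  set s2 : ℝ := ∫ x, (x - 1) ^ 2 ∂ν with hs2
  have hs2nn : 0 ≤ s2 := integral_nonneg fun x => sq_nonneg _
  set X : ℕ → Ω → ℝ := fun a ω => W (a :: v) ω - 1 with hX
  have hXm : ∀ a, Measurable (X a) := fun a => (hW.1 (a :: v)).sub_const 1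
  have hX2 : ∀ a, MemLp (X a) 2 μ := by
    intro a
    rw [memLp_two_iff_integrable_sq (hXm a).aestronglyMeasurable]
    exact integrable_comp_W hW (List.cons_ne_nil a v) (fun x => (x - 1) ^ 2)
      ((measurable_id.sub_const 1).pow_const 2) (integrable_sub_one_sq hm2)
  have hXmean : ∀ a, ∫ ω, X a ω ∂μ = 0 := by
    intro a
    have := integral_comp_W hW (List.cons_ne_nil a v) (fun x => x - 1) (measurable_id.sub_const 1)
    rw [integral_sub_one hmean hm2] at this
    exact this
  have hXsq : ∀ a, ∫ ω, (X a ω) ^ 2 ∂μ = s2 := by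
    intro a
    exact integral_comp_W hW (List.cons_ne_nil a v) (fun x => (x - 1) ^ 2)
      ((measurable_id.sub_const 1).pow_const 2)
  have hXvar : ∀ a, variance (X a) μ = s2 := by
    intro a
    rw [variance_eq_sub (hX2 a)]
    have e1 : μ[X a ^ 2] = s2 := hXsq a
    have e2 : μ[X a] = 0 := hXmean a
    rw [e1, e2]
    ring
  have hindep : Set.Pairwise (↑T : Set ℕ) fun a b => IndepFun (X a) (X b) μ := by
    intro a _ b _ hab
    have hne : a :: v ≠ b :: v := fun h => hab (List.cons.inj h).1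
    exact (hW.2.1.indepFun hne).comp (measurable_id.sub_const 1) (measurable_id.sub_const 1)
  set Z : Ω → ℝ := ∑ a ∈ T, X a with hZ
  have hZapp : ∀ ω, Z ω = ∑ a ∈ T, (W (a :: v) ω - 1) := by
    intro ω
    rw [hZ, Finset.sum_apply]
  have hZ2 : MemLp Z 2 μ := memLp_finsetSum' T fun a _ => hX2 a
  have hZvar : variance Z μ = T.card * s2 := by
    rw [hZ, IndepFun.variance_sum (fun a _ => hX2 a) hindep]
    simp [hXvar]
  have hZmean : μ[Z] = 0 := by
    have : ∫ ω, Z ω ∂μ = ∑ a ∈ T, ∫ ω, X a ω ∂μ := by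
      simp_rw [hZ, Finset.sum_apply]
      exact integral_finsetSum T fun a _ => (hX2 a).integrable one_le_two
    rw [this]
    exact Finset.sum_eq_zero fun a _ => hXmean a
  have hZsq : ∫ ω, (Z ω) ^ 2 ∂μ = T.card * s2 := by
    have := variance_eq_sub hZ2
    rw [hZvar, hZmean] at this
    have e : μ[Z ^ 2] = ∫ ω, (Z ω) ^ 2 ∂μ := rfl
    rw [e] at this
    linarith
  have hZsqint : Integrable (fun ω => (Z ω) ^ 2) μ :=
    (memLp_two_iff_integrable_sq hZ2.aestronglyMeasurable).mp hZ2
  have hZabsint : Integrable (fun ω => |Z ω|) μ := (hZ2.integrable one_le_two).abs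
  set c : ℝ := ∫ ω, |Z ω| ∂μ with hc
  have hcnn : 0 ≤ c := integral_nonneg fun ω => abs_nonneg _
  have hkey : c ^ 2 ≤ T.card * s2 := by
    have h1 : ∫ ω, (2 * c * |Z ω| - c ^ 2) ∂μ ≤ ∫ ω, (Z ω) ^ 2 ∂μ := by
      refine integral_mono ((hZabsint.const_mul (2 * c)).sub (integrable_const _)) hZsqint ?_
      intro ω
      show 2 * c * |Z ω| - c ^ 2 ≤ (Z ω) ^ 2
      nlinarith [sq_nonneg (|Z ω| - c), sq_abs (Z ω)]
    rw [integral_sub (hZabsint.const_mul (2 * c)) (integrable_const _), integral_const_mul,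
      hZsq] at h1
    simp only [integral_const, probReal_univ, smul_eq_mul, one_mul] at h1
    rw [← hc] at h1
    nlinarith
  have hfinal : c ≤ Real.sqrt (s2 * T.card) := by
    have := Real.abs_le_sqrt (x := c) (y := s2 * T.card) (by linarith)
    exact (le_abs_self c).trans this
  rw [Real.sqrt_mul hs2nn] at hfinal
  have : ∫ ω, |∑ a ∈ T, (W (a :: v) ω - 1)| ∂μ = c := by
    rw [hc]
    refine integral_congr_ae (ae_of_all _ fun ω => ?_)
    show |∑ a ∈ T, (W (a :: v) ω - 1)| = |Z ω|
    rw [hZapp]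
  rw [this]
  exact hfinal

end Tree

/-! ### Main theorem -/

/-- **S0169** (statement copied verbatim): the product span is infinite-dimensional and has no
equivalent asymptotically uniformly convex norm. -/
theorem tree_product_main (ν : Measure ℝ) [IsProbabilityMeasure ν] (hpos : ν (Set.Ioi 0) = 1)
    (hnc : ∀ c : ℝ, ν ≠ Measure.dirac c) (hmean : ∫ x, x ∂ν = 1)
    (hm2 : Integrable (fun x : ℝ => x ^ 2) ν)
    (Ω : Type) [MeasurableSpace Ω] (μ : Measure Ω) [IsProbabilityMeasure μ]
    (W : List ℕ → Ω → ℝ) (hW : Crest.AnalysisR.TreeProduct.IsRealization ν μ W) :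
    ¬ FiniteDimensional ℝ (Crest.AnalysisR.TreeProduct.productSpan μ W) ∧
      ∀ N : (Crest.AnalysisR.TreeProduct.spanBanach μ W).X → ℝ,
        (Crest.AnalysisR.TreeProduct.spanBanach μ W).IsEquivNorm N →
          ¬ (Crest.AnalysisR.TreeProduct.spanBanach μ W).IsAUC N := by
  have hprops := pathProduct_props hW hpos hmean hm2
  have hint : ∀ v, Integrable (pathProduct W v) μ := fun v => (hprops v).1
  have h1 : ∀ v, ∫ ω, |pathProduct W v ω| ∂μ = 1 := fun v => (hprops v).2
  set θ : ℝ := ∫ x, |x - 1| ∂ν with hθ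
  have hθpos : 0 < θ := integral_abs_sub_one_pos hnc hm2
  set σ : ℝ := Real.sqrt (∫ x, (x - 1) ^ 2 ∂ν) with hσ
  -- increments, as elements of the product span
  let z : List ℕ → ℕ → ↥(productSpan μ W) := fun v a => ppX hint (a :: v) - ppX hint v
  have hznorm : ∀ v a, ‖z v a‖ = θ := fun v a => norm_increment hW hint h1 v a
  have hzsum : ∀ (v : List ℕ) (T : Finset ℕ), ‖∑ a ∈ T, z v a‖ ≤ σ * Real.sqrt T.card := by
    intro v T
    have e : ((∑ a ∈ T, z v a : ↥(productSpan μ W)) : Lp ℝ 1 μ)
        = ∑ a ∈ T, (ppL hint (a :: v) - ppL hint v) := by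
      rw [Submodule.coe_sum]
      rfl
    rw [Submodule.coe_norm, e, norm_sum_increments hW hint h1 v T]
    exact integral_abs_sum_le hW hmean hm2 v T
  constructor
  · intro hfd
    have hcof : Crest.Agent.S0166.Helper32.IsCofG ({0} : Set ↥(productSpan μ W)) :=
      Crest.Agent.S0166.Helper32.isCofG_zero_of_finiteDimensional
    obtain ⟨k, w, hw, hlt⟩ := hcof.exists_close_of_sqrt_bound (z []) (hzsum []) hθpos
    rw [Set.mem_singleton_iff] at hw
    rw [hw, sub_zero, hznorm] at hlt
    exact lt_irrefl _ hlt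
  · intro N hN
    rw [Crest.Agent.S0166.Helper32.isAUC_iff]
    have hN' := (Crest.Agent.S0166.Helper32.isEquivNorm_iff _ N).mp hN
    refine Crest.Agent.S0166.Helper32.not_isAUCG_of_tree (T := Set.range (ppX hint)) (R := 1)
      (δ := θ) hθpos ⟨_, ⟨[], rfl⟩⟩ ?_ ?_ N hN'
    · rintro _ ⟨v, rfl⟩
      exact (norm_ppL hint h1 v).le
    · rintro _ ⟨v, rfl⟩ F hF ε hε
      obtain ⟨k, w, hw, hlt⟩ := hF.exists_close_of_sqrt_bound (z v) (hzsum v) hε
      exact ⟨ppX hint (k :: v), ⟨k :: v, rfl⟩, w, hw, hlt, (hznorm v k).ge⟩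

end Crest.Agent.S0169.Helper36
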